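import Mathlib

/-!
Real-variable lemmas on the sums `∑ sin (k θ) / k` and on the Dirichlet kernel.
-/

namespace Vale.Agent.H25

open Finset Real

/-- Abel's inequality: if `a` is antitone and nonnegative and the partial sums of `b` are bounded
by `B`, then the partial sums of `a k * b k` are bounded by `a 0 * B`. -/
theorem abel_inequality (a b : ℕ → ℝ) (B : ℝ) (ha : Antitone a) (ha0 : ∀ n, 0 ≤ a n)
    (hb : ∀ n, |∑ k ∈ range n, b k| ≤ B) (n : ℕ) :
    |∑ k ∈ range n, a k * b k| ≤ a 0 * B := by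
  have hB : 0 ≤ B := (abs_nonneg _).trans (hb 0)
  have key : ∀ n, ∑ k ∈ range n, a k * b k =
      a n * (∑ k ∈ range n, b k) + ∑ k ∈ range n, (a k - a (k + 1)) * ∑ j ∈ range (k + 1), b j := by
    intro n
    induction n with
    | zero => simp
    | succ n ih =>
      rw [sum_range_succ, ih, sum_range_succ (fun k => (a k - a (k + 1)) * ∑ j ∈ range (k + 1), b j),
        sum_range_succ b]
      ring
  rw [key n]
  have h1 : |a n * ∑ k ∈ range n, b k| ≤ a n * B := by
    rw [abs_mul, abs_of_nonneg (ha0 n)]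
    exact mul_le_mul_of_nonneg_left (hb n) (ha0 n)
  have h2 : |∑ k ∈ range n, (a k - a (k + 1)) * ∑ j ∈ range (k + 1), b j| ≤
      ∑ k ∈ range n, (a k - a (k + 1)) * B := by
    refine (abs_sum_le_sum_abs _ _).trans (sum_le_sum fun k _ => ?_)
    have h3 : 0 ≤ a k - a (k + 1) := sub_nonneg.2 (ha (Nat.le_succ k))
    rw [abs_mul, abs_of_nonneg h3]
    exact mul_le_mul_of_nonneg_left (hb (k + 1)) h3
  have h4 : ∑ k ∈ range n, (a k - a (k + 1)) * B = (a 0 - a n) * B := by
    rw [← sum_mul, sum_range_sub']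
  calc |a n * ∑ k ∈ range n, b k + ∑ k ∈ range n, (a k - a (k + 1)) * ∑ j ∈ range (k + 1), b j|
      ≤ |a n * ∑ k ∈ range n, b k| +
        |∑ k ∈ range n, (a k - a (k + 1)) * ∑ j ∈ range (k + 1), b j| := abs_add_le _ _
    _ ≤ a n * B + (a 0 - a n) * B := add_le_add h1 (h2.trans h4.le)
    _ = a 0 * B := by ring

/-- `|sin (n θ)| ≤ n |sin θ|`. -/
theorem abs_sin_nat_mul_le (n : ℕ) (θ : ℝ) : |sin (n * θ)| ≤ n * |sin θ| := by
  induction n with
  | zero => simp
  | succ n ih =>
    have h : sin ((n + 1 : ℕ) * θ) = sin (n * θ) * cos θ + cos (n * θ) * sin θ := by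
      rw [← sin_add]
      congr 1
      push_cast
      ring
    rw [h]
    calc |sin (n * θ) * cos θ + cos (n * θ) * sin θ|
        ≤ |sin (n * θ) * cos θ| + |cos (n * θ) * sin θ| := abs_add_le _ _
      _ = |sin (n * θ)| * |cos θ| + |cos (n * θ)| * |sin θ| := by rw [abs_mul, abs_mul]
      _ ≤ |sin (n * θ)| * 1 + 1 * |sin θ| := by
        gcongr
        · exact abs_cos_le_one _
        · exact abs_cos_le_one _
      _ ≤ n * |sin θ| + 1 * |sin θ| := by linarith
      _ = ((n + 1 : ℕ) : ℝ) * |sin θ| := by push_cast; ring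

/-- Telescoping identity for shifted sums of sines. -/
theorem sin_half_mul_sum_sin (m n : ℕ) (θ : ℝ) :
    sin (θ / 2) * ∑ k ∈ range n, sin ((m + k + 1 : ℕ) * θ) =
      (cos ((m + 1 / 2 : ℝ) * θ) - cos ((m + n + 1 / 2 : ℝ) * θ)) / 2 := by
  induction n with
  | zero => simp
  | succ n ih =>
    rw [sum_range_succ, mul_add, ih]
    have h1 : sin (θ / 2) * sin ((m + n + 1 : ℕ) * θ) =
        (cos ((m + n + 1 / 2 : ℝ) * θ) - cos ((m + (n + 1 : ℕ) + 1 / 2 : ℝ) * θ)) / 2 := by
      have e1 : (m + n + 1 / 2 : ℝ) * θ = (m + n + 1 : ℕ) * θ - θ / 2 := by push_cast; ring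
      have e2 : (m + (n + 1 : ℕ) + 1 / 2 : ℝ) * θ = (m + n + 1 : ℕ) * θ + θ / 2 := by
        push_cast; ring
      rw [e1, e2, cos_sub, cos_add]
      ring
    rw [h1]
    ring

theorem abs_sum_sin_shift_le (m n : ℕ) (θ : ℝ) (h : sin (θ / 2) ≠ 0) :
    |∑ k ∈ range n, sin ((m + k + 1 : ℕ) * θ)| ≤ 1 / |sin (θ / 2)| := by
  have h1 := sin_half_mul_sum_sin m n θ
  have h2 : |sin (θ / 2)| * |∑ k ∈ range n, sin ((m + k + 1 : ℕ) * θ)| ≤ 1 := by
    rw [← abs_mul, h1, abs_div, abs_two]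
    have := abs_sub (cos ((m + 1 / 2 : ℝ) * θ)) (cos ((m + n + 1 / 2 : ℝ) * θ))
    have c1 := abs_cos_le_one ((m + 1 / 2 : ℝ) * θ)
    have c2 := abs_cos_le_one ((m + n + 1 / 2 : ℝ) * θ)
    rw [div_le_one (by norm_num)]
    linarith
  rw [le_div_iff₀ (abs_pos.2 h)]
  linarith [mul_comm |sin (θ / 2)| |∑ k ∈ range n, sin ((m + k + 1 : ℕ) * θ)|]

/-- The partial sums `∑_{k=1}^{N} sin (k θ) / k`. -/
noncomputable def sawSum (N : ℕ) (θ : ℝ) : ℝ := ∑ k ∈ range N, sin ((k + 1 : ℕ) * θ) / (k + 1 : ℕ)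

theorem sawSum_neg (N : ℕ) (θ : ℝ) : sawSum N (-θ) = -sawSum N θ := by
  unfold sawSum
  rw [← sum_neg_distrib]
  refine sum_congr rfl fun k _ => ?_
  rw [mul_neg, sin_neg, neg_div]

theorem sin_nat_mul_eq_zero_of_sin_half (θ : ℝ) (h : sin (θ / 2) = 0) (n : ℕ) :
    sin (n * θ) = 0 := by
  have h1 : sin θ = 0 := by
    have : θ = 2 * (θ / 2) := by ring
    rw [this, sin_two_mul, h]
    ring
  have h2 := abs_sin_nat_mul_le n θ
  rw [h1, abs_zero, mul_zero] at h2
  exact abs_nonpos_iff.1 h2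

theorem abs_sin_le_two_mul (θ : ℝ) : |sin θ| ≤ 2 * |sin (θ / 2)| := by
  have : θ = 2 * (θ / 2) := by ring
  conv_lhs => rw [this, sin_two_mul]
  rw [abs_mul, abs_mul, abs_two]
  have := abs_cos_le_one (θ / 2)
  have h0 := abs_nonneg (sin (θ / 2))
  nlinarith

/-- Crude bound for the initial block of the sawtooth sums. -/
theorem abs_sawSum_le_mul (N : ℕ) (θ : ℝ) : |sawSum N θ| ≤ 2 * N * |sin (θ / 2)| := by
  unfold sawSum
  calc |∑ k ∈ range N, sin ((k + 1 : ℕ) * θ) / (k + 1 : ℕ)|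
      ≤ ∑ k ∈ range N, |sin ((k + 1 : ℕ) * θ) / (k + 1 : ℕ)| := abs_sum_le_sum_abs _ _
    _ ≤ ∑ k ∈ range N, 2 * |sin (θ / 2)| := by
        refine sum_le_sum fun k _ => ?_
        have hk : (0 : ℝ) < ((k + 1 : ℕ) : ℝ) := by positivity
        rw [abs_div, abs_of_pos hk, div_le_iff₀ hk]
        have h1 := abs_sin_nat_mul_le (k + 1) θ
        have h2 := abs_sin_le_two_mul θ
        calc |sin ((k + 1 : ℕ) * θ)| ≤ ((k + 1 : ℕ) : ℝ) * |sin θ| := h1
          _ ≤ ((k + 1 : ℕ) : ℝ) * (2 * |sin (θ / 2)|) := by gcongr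
          _ = 2 * |sin (θ / 2)| * ((k + 1 : ℕ) : ℝ) := by ring
    _ = 2 * N * |sin (θ / 2)| := by
        rw [sum_const, card_range, nsmul_eq_mul]
        ring

/-- The sawtooth sums are uniformly bounded. -/
theorem abs_sawSum_le (N : ℕ) (θ : ℝ) : |sawSum N θ| ≤ 3 := by
  by_cases h : sin (θ / 2) = 0
  · have : sawSum N θ = 0 := by
      unfold sawSum
      refine sum_eq_zero fun k _ => ?_
      rw [sin_nat_mul_eq_zero_of_sin_half θ h, zero_div]
    rw [this, abs_zero]
    norm_num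
  · set σ := |sin (θ / 2)| with hσ
    have hσpos : 0 < σ := abs_pos.2 h
    set m := ⌊1 / σ⌋₊ with hm
    have hm1 : (m : ℝ) ≤ 1 / σ := Nat.floor_le (by positivity)
    have hm2 : 1 / σ < m + 1 := Nat.lt_floor_add_one _
    rcases le_or_gt N m with hN | hN
    · have h1 := abs_sawSum_le_mul N θ
      have h2 : 2 * (N : ℝ) * σ ≤ 2 := by
        have : (N : ℝ) ≤ 1 / σ := le_trans (by exact_mod_cast hN) hm1
        rw [le_div_iff₀ hσpos] at this
        linarith
      linarith
    · obtain ⟨n, rfl⟩ := Nat.exists_eq_add_of_le hN.le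
      have hsplit : sawSum (m + n) θ = sawSum m θ +
          ∑ k ∈ range n, (1 / ((m + k + 1 : ℕ) : ℝ)) * sin ((m + k + 1 : ℕ) * θ) := by
        unfold sawSum
        rw [sum_range_add]
        congr 1
        refine sum_congr rfl fun k _ => ?_
        rw [add_assoc m k 1]
        ring
      have h1 : |sawSum m θ| ≤ 2 := by
        have h1 := abs_sawSum_le_mul m θ
        have h2 : 2 * (m : ℝ) * σ ≤ 2 := by
          have := hm1
          rw [le_div_iff₀ hσpos] at this
          linarith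
        linarith
      have h2 : |∑ k ∈ range n, (1 / ((m + k + 1 : ℕ) : ℝ)) * sin ((m + k + 1 : ℕ) * θ)| ≤
          1 / ((m + 0 + 1 : ℕ) : ℝ) * (1 / σ) := by
        refine abel_inequality (fun k => 1 / ((m + k + 1 : ℕ) : ℝ))
          (fun k => sin ((m + k + 1 : ℕ) * θ)) (1 / σ) ?_ ?_ ?_ n
        · intro i j hij
          simp only
          apply one_div_le_one_div_of_le (by positivity)
          exact_mod_cast (by omega : m + i + 1 ≤ m + j + 1)
        · intro k
          positivity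
        · intro k
          exact abs_sum_sin_shift_le m k θ h
      have h3 : 1 / ((m + 0 + 1 : ℕ) : ℝ) * (1 / σ) ≤ 1 := by
        have hpos : (0 : ℝ) < ((m + 0 + 1 : ℕ) : ℝ) := by positivity
        rw [one_div_mul_eq_div, div_le_one hpos]
        push_cast
        linarith
      rw [hsplit]
      calc |sawSum m θ + ∑ k ∈ range n, (1 / ((m + k + 1 : ℕ) : ℝ)) * sin ((m + k + 1 : ℕ) * θ)|
          ≤ |sawSum m θ| +
            |∑ k ∈ range n, (1 / ((m + k + 1 : ℕ) : ℝ)) * sin ((m + k + 1 : ℕ) * θ)| :=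
            abs_add_le _ _
        _ ≤ 2 + 1 := add_le_add h1 (h2.trans h3)
        _ = 3 := by norm_num

/-- The sawtooth sums converge at every point. -/
theorem exists_tendsto_sawSum (θ : ℝ) :
    ∃ L : ℝ, Filter.Tendsto (fun N => sawSum N θ) Filter.atTop (nhds L) := by
  have hcs : CauchySeq (fun N => sawSum N θ) := by
    have hanti : Antitone (fun k : ℕ => 1 / ((k + 1 : ℕ) : ℝ)) := by
      intro i j hij
      apply one_div_le_one_div_of_le (by positivity)
      exact_mod_cast (by omega : i + 1 ≤ j + 1)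
    have hlim : Filter.Tendsto (fun k : ℕ => 1 / ((k + 1 : ℕ) : ℝ)) Filter.atTop (nhds 0) := by
      have := tendsto_one_div_add_atTop_nhds_zero_nat (𝕜 := ℝ)
      refine this.congr fun k => ?_
      push_cast
      rfl
    by_cases h : sin (θ / 2) = 0
    · have : (fun N => sawSum N θ) = fun _ => 0 := by
        funext N
        unfold sawSum
        refine sum_eq_zero fun k _ => ?_
        rw [sin_nat_mul_eq_zero_of_sin_half θ h, zero_div]
      rw [this]
      exact cauchySeq_const 0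
    · have hb : ∀ n, ‖∑ i ∈ range n, sin ((i + 1 : ℕ) * θ)‖ ≤ 1 / |sin (θ / 2)| := by
        intro n
        have := abs_sum_sin_shift_le 0 n θ h
        simp only [zero_add] at this
        simpa [Real.norm_eq_abs] using this
      have hcs := hanti.cauchySeq_series_mul_of_tendsto_zero_of_bounded hlim hb
      have heq : (fun N => sawSum N θ) =
          fun n => ∑ i ∈ range n, (1 / ((i + 1 : ℕ) : ℝ)) • sin ((i + 1 : ℕ) * θ) := by
        funext N
        unfold sawSum
        refine sum_congr rfl fun k _ => ?_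
        simp only [smul_eq_mul]
        ring
      rw [heq]
      exact hcs
  exact cauchySeq_tendsto_of_complete hcs

end Vale.Agent.H25
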