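import Mathlib
import Vale.Agent.H25.SineSums

/-!
The Dirichlet kernel in real form, its integral over an interval, and the resulting bounds for
the partial Fourier sums of the indicator of an arc.
-/

namespace Vale.Agent.H25

open Finset Real

/-- The Dirichlet kernel `1 + 2 ∑_{k=1}^{N} cos (k t)`. -/
noncomputable def dirK (N : ℕ) (t : ℝ) : ℝ := 1 + 2 * ∑ k ∈ range N, cos ((k + 1 : ℕ) * t)

theorem sin_half_mul_dirK (N : ℕ) (t : ℝ) :
    sin (t / 2) * dirK N t = sin ((N + 1 / 2 : ℝ) * t) := by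
  unfold dirK
  induction N with
  | zero => simp; ring_nf
  | succ N ih =>
    rw [sum_range_succ, mul_add 2, ← add_assoc, mul_add, ih]
    have e1 : ((N + 1 : ℕ) + 1 / 2 : ℝ) * t = (N + 1 : ℕ) * t + t / 2 := by push_cast; ring
    have e2 : (N + 1 / 2 : ℝ) * t = (N + 1 : ℕ) * t - t / 2 := by push_cast; ring
    rw [e1, e2, sin_add, sin_sub]
    ring

theorem abs_dirK_le (N : ℕ) (t : ℝ) (h : sin (t / 2) ≠ 0) : |dirK N t| ≤ 1 / |sin (t / 2)| := by
  have h1 := sin_half_mul_dirK N t
  rw [le_div_iff₀ (abs_pos.2 h), mul_comm, ← abs_mul, h1]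
  exact abs_sin_le_one _

theorem continuous_dirK (N : ℕ) : Continuous (dirK N) := by
  unfold dirK
  fun_prop

/-- Integral of the Dirichlet kernel over an interval. -/
theorem integral_dirK (N : ℕ) (u v : ℝ) :
    ∫ t in u..v, dirK N t = (v - u) + 2 * (sawSum N v - sawSum N u) := by
  unfold dirK sawSum
  have hc1 : Continuous (fun _ : ℝ => (1 : ℝ)) := continuous_const
  have hc2 : Continuous (fun t : ℝ => 2 * ∑ k ∈ range N, cos ((k + 1 : ℕ) * t)) := by fun_prop
  rw [intervalIntegral.integral_add (hc1.intervalIntegrable _ _) (hc2.intervalIntegrable _ _),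
    intervalIntegral.integral_const,
    intervalIntegral.integral_const_mul, intervalIntegral.integral_finsetSum]
  · have : ∀ k ∈ range N, ∫ t in u..v, cos ((k + 1 : ℕ) * t) =
        sin ((k + 1 : ℕ) * v) / (k + 1 : ℕ) - sin ((k + 1 : ℕ) * u) / (k + 1 : ℕ) := by
      intro k _
      have hk : ((k + 1 : ℕ) : ℝ) ≠ 0 := by positivity
      rw [intervalIntegral.integral_comp_mul_left (fun x => cos x) hk, integral_cos]
      simp only [smul_eq_mul]
      field_simp
    rw [sum_congr rfl this, sum_sub_distrib]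
    simp
  · intro k _
    apply Continuous.intervalIntegrable
    fun_prop

/-- Lower bound for `sin` on `[δ/2, π - δ/2]`. -/
theorem le_sin_half {δ t : ℝ} (hδ : 0 ≤ δ) (h1 : δ ≤ t) (h2 : t ≤ 2 * π - δ) :
    δ / π ≤ sin (t / 2) := by
  have hπ := pi_pos
  rcases le_total (t / 2) (π / 2) with h | h
  · have := mul_le_sin (x := t / 2) (by linarith) h
    calc δ / π = 2 / π * (δ / 2) := by field_simp
      _ ≤ 2 / π * (t / 2) := by gcongr
      _ ≤ sin (t / 2) := this
  · have := mul_le_sin (x := π - t / 2) (by linarith) (by linarith)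
    rw [sin_pi_sub] at this
    calc δ / π = 2 / π * (δ / 2) := by field_simp
      _ ≤ 2 / π * (π - t / 2) := by gcongr; linarith
      _ ≤ sin (t / 2) := this

/-- Decay bound: the integral of the Dirichlet kernel over an interval at distance `δ` from
`2π ℤ`. -/
theorem abs_integral_dirK_le (N : ℕ) {δ u v : ℝ} (hδ : 0 < δ) (hu : δ ≤ u) (huv : u ≤ v)
    (hv : v ≤ 2 * π - δ) : |∫ t in u..v, dirK N t| ≤ π / δ * (v - u) := by
  have hπ := pi_pos
  have key : ∀ t ∈ Set.uIoc u v, ‖dirK N t‖ ≤ π / δ := by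
    intro t ht
    rw [Set.uIoc_of_le huv] at ht
    have h1 : δ / π ≤ sin (t / 2) := le_sin_half hδ.le (by linarith [ht.1]) (by linarith [ht.2])
    have h2 : 0 < sin (t / 2) := lt_of_lt_of_le (by positivity) h1
    rw [Real.norm_eq_abs]
    refine (abs_dirK_le N t h2.ne').trans ?_
    rw [abs_of_pos h2, one_div]
    have h3 : (sin (t / 2))⁻¹ ≤ (δ / π)⁻¹ := inv_anti₀ (by positivity) h1
    rwa [inv_div] at h3
  have := intervalIntegral.norm_integral_le_of_norm_le_const key
  rw [Real.norm_eq_abs, abs_of_nonneg (sub_nonneg.2 huv)] at this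
  exact this

/-- The `N`-th symmetric partial Fourier sum of the indicator of the arc of radius `r`, evaluated
at offset `y` from the centre of the arc. -/
noncomputable def arcSum (N : ℕ) (r y : ℝ) : ℝ :=
  r / π + (sawSum N (y + r) - sawSum N (y - r)) / π

theorem arcSum_eq_integral (N : ℕ) (r y : ℝ) :
    arcSum N r y = (1 / (2 * π)) * ∫ t in (y - r)..(y + r), dirK N t := by
  rw [integral_dirK, arcSum]
  have hπ := pi_pos
  field_simp
  ring

theorem arcSum_neg (N : ℕ) (r y : ℝ) : arcSum N r (-y) = arcSum N r y := by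
  unfold arcSum
  have e1 : -y + r = -(y - r) := by ring
  have e2 : -y - r = -(y + r) := by ring
  rw [e1, e2, sawSum_neg, sawSum_neg]
  ring

theorem abs_arcSum_le_three (N : ℕ) {r : ℝ} (hr0 : 0 ≤ r) (hr : r ≤ π) (y : ℝ) :
    |arcSum N r y| ≤ 3 := by
  unfold arcSum
  have hπ := pi_pos
  have h1 := abs_sawSum_le N (y + r)
  have h2 := abs_sawSum_le N (y - r)
  have h3 : |r / π| ≤ 1 := by
    rw [abs_of_nonneg (by positivity), div_le_one hπ]
    exact hr
  have h4 : |(sawSum N (y + r) - sawSum N (y - r)) / π| ≤ 6 / π := by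
    rw [abs_div, abs_of_pos hπ]
    gcongr
    calc |sawSum N (y + r) - sawSum N (y - r)| ≤ |sawSum N (y + r)| + |sawSum N (y - r)| :=
          abs_sub _ _
      _ ≤ 6 := by linarith
  have h5 : 6 / π ≤ 2 := by
    rw [div_le_iff₀ hπ]
    linarith [pi_gt_three]
  calc |r / π + (sawSum N (y + r) - sawSum N (y - r)) / π|
      ≤ |r / π| + |(sawSum N (y + r) - sawSum N (y - r)) / π| := abs_add_le _ _
    _ ≤ 3 := by linarith

theorem abs_arcSum_le_of_pos (N : ℕ) {r y : ℝ} (hr : 0 < r) (hry : r < y) (hy : y ≤ π) :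
    |arcSum N r y| ≤ r / (y - r) := by
  have hπ := pi_pos
  have hδ : 0 < y - r := by linarith
  rw [arcSum_eq_integral, abs_mul, abs_of_pos (by positivity)]
  have := abs_integral_dirK_le N hδ le_rfl (by linarith : y - r ≤ y + r)
    (by linarith : y + r ≤ 2 * π - (y - r))
  calc 1 / (2 * π) * |∫ t in (y - r)..(y + r), dirK N t|
      ≤ 1 / (2 * π) * (π / (y - r) * (y + r - (y - r))) := by gcongr
    _ = r / (y - r) := by field_simp; ring

/-- The uniform majorant for the partial sums of an arc indicator. -/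
theorem abs_arcSum_le (N : ℕ) {r y : ℝ} (hr : 0 < r) (hrπ : r ≤ π) (hy : |y| ≤ π) :
    |arcSum N r y| ≤ 12 * r / (r + |y|) := by
  have habs : 0 ≤ |y| := abs_nonneg y
  have hden : 0 < r + |y| := by linarith
  rw [le_div_iff₀ hden]
  rcases lt_or_ge |y| (2 * r) with h | h
  · have := abs_arcSum_le_three N hr.le hrπ y
    nlinarith
  · have h1 : |arcSum N r y| ≤ r / (|y| - r) := by
      rcases le_or_gt 0 y with h0 | h0
      · rw [abs_of_nonneg h0] at h hy ⊢
        exact abs_arcSum_le_of_pos N hr (by linarith) hy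
      · rw [abs_of_neg h0] at h hy ⊢
        rw [← arcSum_neg]
        exact abs_arcSum_le_of_pos N hr (by linarith) hy
    have h2 : 0 < |y| - r := by linarith
    have h3 : r / (|y| - r) * (r + |y|) ≤ 12 * r := by
      rw [div_mul_eq_mul_div, div_le_iff₀ h2]
      nlinarith
    calc |arcSum N r y| * (r + |y|) ≤ r / (|y| - r) * (r + |y|) := by gcongr
      _ ≤ 12 * r := h3

/-- The partial sums of an arc indicator converge at every point. -/
theorem exists_tendsto_arcSum (r y : ℝ) :
    ∃ L : ℝ, Filter.Tendsto (fun N => arcSum N r y) Filter.atTop (nhds L) := by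
  obtain ⟨L1, h1⟩ := exists_tendsto_sawSum (y + r)
  obtain ⟨L2, h2⟩ := exists_tendsto_sawSum (y - r)
  refine ⟨r / π + (L1 - L2) / π, ?_⟩
  unfold arcSum
  exact ((h1.sub h2).div_const π).const_add (r / π)

end Vale.Agent.H25
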