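import Mathlib
import Vale.Agent.H25.DirichletKernel

/-!
Fourier coefficients and symmetric partial Fourier sums of the indicator of an arc of the
circle `AddCircle (2 * π)`.
-/

set_option linter.unusedSectionVars false

noncomputable section

namespace Vale.Agent.H25

open Finset Real MeasureTheory

variable [hT : Fact ((0 : ℝ) < 2 * π)]

/-- The `N`-th symmetric partial Fourier sum of a function on the circle. -/
def partialFourierSum (f : AddCircle (2 * π) → ℂ) (N : ℕ) (x : AddCircle (2 * π)) : ℂ :=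
  ∑ k ∈ Icc (-(N : ℤ)) N, fourierCoeff f k * fourier k x

theorem fourier_two_pi_coe (n : ℤ) (x : ℝ) :
    fourier n (x : AddCircle (2 * π)) = Complex.exp (Complex.I * n * x) := by
  rw [fourier_coe_apply]
  congr 1
  have : (π : ℂ) ≠ 0 := by exact_mod_cast pi_ne_zero
  push_cast
  field_simp

/-- A symmetric sum over `[-N, N]` as a sum over `range N`. -/
theorem sum_Icc_neg_eq (g : ℤ → ℂ) (N : ℕ) :
    ∑ k ∈ Icc (-(N : ℤ)) N, g k = g 0 + ∑ j ∈ range N, (g (j + 1 : ℕ) + g (-((j + 1 : ℕ) : ℤ))) := by
  induction N with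
  | zero => simp
  | succ N ih =>
    have hset : Icc (-((N + 1 : ℕ) : ℤ)) ((N + 1 : ℕ) : ℤ) =
        insert (-((N + 1 : ℕ) : ℤ)) (insert (((N + 1 : ℕ) : ℤ)) (Icc (-(N : ℤ)) N)) := by
      ext k
      simp only [mem_Icc, mem_insert]
      push_cast
      omega
    rw [hset, sum_insert, sum_insert, ih, sum_range_succ]
    · ring
    · simp only [mem_Icc, not_and, not_le]
      intro _
      push_cast
      omega
    · simp only [mem_insert, mem_Icc, not_or, not_and, not_le]
      push_cast
      constructor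
      · omega
      · intro h
        omega

/-- The exponential sum `∑_{|k| ≤ N} e^{i k u}` is the Dirichlet kernel. -/
theorem sum_exp_eq_dirK (N : ℕ) (u : ℝ) :
    ∑ k ∈ Icc (-(N : ℤ)) N, Complex.exp (Complex.I * k * u) = (dirK N u : ℂ) := by
  rw [sum_Icc_neg_eq]
  unfold dirK
  push_cast
  rw [mul_sum]
  congr 1
  · simp
  · refine sum_congr rfl fun j _ => ?_
    rw [Complex.cos]
    have e1 : Complex.I * ((j : ℂ) + 1) * (u : ℂ) = (((j : ℂ) + 1) * (u : ℂ)) * Complex.I := by ring
    have e2 : Complex.I * (-((j : ℂ) + 1)) * (u : ℂ) = -(((j : ℂ) + 1) * (u : ℂ)) * Complex.I := by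
      ring
    rw [e1, e2]
    ring

/-- The indicator function of the closed arc of radius `r` around `c`. -/
def arcInd (c : AddCircle (2 * π)) (r : ℝ) : AddCircle (2 * π) → ℂ :=
  (Metric.closedBall c r).indicator (fun _ => (1 : ℂ))

theorem coe_mem_closedBall_iff (c t r : ℝ) (h : |t - c| ≤ π) :
    ((t : AddCircle (2 * π)) ∈ Metric.closedBall (c : AddCircle (2 * π)) r) ↔ |t - c| ≤ r := by
  rw [Metric.mem_closedBall, dist_eq_norm, ← QuotientAddGroup.mk_sub]
  have h2 : ‖((t - c : ℝ) : AddCircle (2 * π))‖ = |t - c| := by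
    rw [AddCircle.norm_coe_eq_abs_iff (2 * π) (by positivity)]
    rw [abs_of_pos (by positivity : (0 : ℝ) < 2 * π)]
    linarith
  rw [h2]

theorem arcInd_coe (c t r : ℝ) (h : |t - c| ≤ π) :
    arcInd (c : AddCircle (2 * π)) r (t : AddCircle (2 * π)) =
      (Set.Icc (c - r) (c + r)).indicator (fun _ => (1 : ℂ)) t := by
  unfold arcInd
  by_cases h1 : |t - c| ≤ r
  · rw [Set.indicator_of_mem ((coe_mem_closedBall_iff c t r h).2 h1), Set.indicator_of_mem]
    rw [abs_le] at h1
    exact ⟨by linarith [h1.1], by linarith [h1.2]⟩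
  · rw [Set.indicator_of_notMem (fun hh => h1 ((coe_mem_closedBall_iff c t r h).1 hh)),
      Set.indicator_of_notMem]
    intro hh
    apply h1
    rw [abs_le]
    exact ⟨by linarith [hh.1], by linarith [hh.2]⟩

/-- Fourier coefficients of the indicator of an arc. -/
theorem fourierCoeff_arcInd (c r : ℝ) (hr0 : 0 ≤ r) (hr : r < π) (k : ℤ) :
    fourierCoeff (arcInd (c : AddCircle (2 * π)) r) k =
      (1 / (2 * π) : ℂ) * ∫ t in (c - r)..(c + r), Complex.exp (Complex.I * (-k : ℤ) * t) := by
  rw [fourierCoeff_eq_intervalIntegral _ k (c - π)]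
  have e0 : c - π + 2 * π = c + π := by ring
  rw [e0]
  have hle : c - π ≤ c + π := by linarith [pi_pos]
  have hle' : c - r ≤ c + r := by linarith
  rw [intervalIntegral.integral_of_le hle, intervalIntegral.integral_of_le hle']
  have h1 : ∫ x in Set.Ioc (c - π) (c + π),
      fourier (-k) (x : AddCircle (2 * π)) • arcInd (c : AddCircle (2 * π)) r x =
      ∫ x in Set.Ioc (c - π) (c + π),
        (Set.Icc (c - r) (c + r)).indicator (fun t : ℝ => Complex.exp (Complex.I * (-k : ℤ) * t)) x := by
    refine setIntegral_congr_fun measurableSet_Ioc fun x hx => ?_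
    have hx' : |x - c| ≤ π := by
      rw [abs_le]
      exact ⟨by linarith [hx.1], by linarith [hx.2]⟩
    rw [arcInd_coe c x r hx', fourier_two_pi_coe]
    by_cases hm : x ∈ Set.Icc (c - r) (c + r)
    · rw [Set.indicator_of_mem hm, Set.indicator_of_mem hm]
      simp
    · rw [Set.indicator_of_notMem hm, Set.indicator_of_notMem hm]
      simp
  rw [h1, setIntegral_indicator measurableSet_Icc]
  have h2 : Set.Ioc (c - π) (c + π) ∩ Set.Icc (c - r) (c + r) = Set.Icc (c - r) (c + r) := by
    ext x
    simp only [Set.mem_inter_iff, Set.mem_Ioc, Set.mem_Icc]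
    constructor
    · exact fun h => h.2
    · exact fun h => ⟨⟨by linarith [h.1], by linarith [h.2]⟩, h⟩
  rw [h2, integral_Icc_eq_integral_Ioc]
  simp only [one_div, mul_inv_rev, Complex.real_smul, Complex.ofReal_mul, Complex.ofReal_inv,
    Complex.ofReal_ofNat]

/-- The partial Fourier sums of the indicator of an arc, in closed form. -/
theorem partialFourierSum_arcInd (c r : ℝ) (hr0 : 0 ≤ r) (hr : r < π) (N : ℕ) (x : ℝ) :
    partialFourierSum (arcInd (c : AddCircle (2 * π)) r) N (x : AddCircle (2 * π)) =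
      (arcSum N r (x - c) : ℂ) := by
  unfold partialFourierSum
  have h1 : ∀ k ∈ Icc (-(N : ℤ)) N,
      fourierCoeff (arcInd (c : AddCircle (2 * π)) r) k * fourier k (x : AddCircle (2 * π)) =
      (1 / (2 * π) : ℂ) * ∫ t in (c - r)..(c + r), Complex.exp (Complex.I * k * ((x - t : ℝ) : ℂ)) := by
    intro k _
    rw [fourierCoeff_arcInd c r hr0 hr, fourier_two_pi_coe, mul_assoc,
      ← intervalIntegral.integral_mul_const]
    congr 1
    refine intervalIntegral.integral_congr fun t _ => ?_
    rw [← Complex.exp_add]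
    congr 1
    push_cast
    ring
  rw [sum_congr rfl h1, ← mul_sum, ← intervalIntegral.integral_finsetSum]
  · have h2 : ∀ t : ℝ, ∑ k ∈ Icc (-(N : ℤ)) N, Complex.exp (Complex.I * k * ((x - t : ℝ) : ℂ)) =
        ((dirK N (x - t) : ℝ) : ℂ) := fun t => sum_exp_eq_dirK N (x - t)
    simp only [h2]
    rw [intervalIntegral.integral_ofReal, intervalIntegral.integral_comp_sub_left (fun u => dirK N u),
      arcSum_eq_integral]
    have e1 : x - (c + r) = x - c - r := by ring
    have e2 : x - (c - r) = x - c + r := by ring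
    rw [e1, e2]
    push_cast
    ring
  · intro k _
    apply Continuous.intervalIntegrable
    fun_prop

/-- Every point of the circle has a real lift whose absolute value is its norm. -/
theorem exists_lift_abs_eq_norm (z : AddCircle (2 * π)) :
    ∃ y : ℝ, (y : AddCircle (2 * π)) = z ∧ |y| = ‖z‖ := by
  obtain ⟨x, rfl⟩ := QuotientAddGroup.mk_surjective z
  refine ⟨x - round ((2 * π)⁻¹ * x) * (2 * π), ?_, ?_⟩
  · rw [AddCircle.coe_sub, ← zsmul_eq_mul, AddCircle.coe_zsmul, AddCircle.coe_period, smul_zero,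
      sub_zero]
  · exact (AddCircle.norm_eq (p := 2 * π) (x := x)).symm

theorem norm_le_pi (z : AddCircle (2 * π)) : ‖z‖ ≤ π := by
  have := AddCircle.norm_le_half_period (2 * π) (x := z) (by positivity)
  rw [abs_of_pos (by positivity : (0 : ℝ) < 2 * π)] at this
  linarith

/-- The partial Fourier sums of an arc indicator, at a general point, in closed form. -/
theorem exists_partialFourierSum_arcInd (c : AddCircle (2 * π)) (r : ℝ) (hr0 : 0 ≤ r) (hr : r < π)
    (z : AddCircle (2 * π)) :
    ∃ y : ℝ, |y| = ‖z - c‖ ∧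
      ∀ N, partialFourierSum (arcInd c r) N z = (arcSum N r y : ℂ) := by
  obtain ⟨c', rfl⟩ := QuotientAddGroup.mk_surjective c
  obtain ⟨y, hy1, hy2⟩ := exists_lift_abs_eq_norm (z - (c' : AddCircle (2 * π)))
  refine ⟨y, hy2, fun N => ?_⟩
  have hz : z = ((c' + y : ℝ) : AddCircle (2 * π)) := by
    rw [AddCircle.coe_add, hy1]
    abel
  have := partialFourierSum_arcInd c' r hr0 hr N (c' + y)
  rw [hz]
  rw [show c' + y - c' = y by ring] at this
  exact this

/-- The uniform majorant for the partial Fourier sums of an arc indicator. -/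
theorem norm_partialFourierSum_arcInd_le (c : AddCircle (2 * π)) (r : ℝ) (hr0 : 0 < r)
    (hr : r < π) (N : ℕ) (z : AddCircle (2 * π)) :
    ‖partialFourierSum (arcInd c r) N z‖ ≤ 12 * r / (r + ‖z - c‖) := by
  obtain ⟨y, hy, h⟩ := exists_partialFourierSum_arcInd c r hr0.le hr z
  rw [h N, Complex.norm_real, Real.norm_eq_abs, ← hy]
  exact abs_arcSum_le N hr0 hr.le (by rw [hy]; exact norm_le_pi _)

/-- The partial Fourier sums of an arc indicator converge at every point. -/
theorem exists_tendsto_partialFourierSum_arcInd (c : AddCircle (2 * π)) (r : ℝ) (hr0 : 0 ≤ r)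
    (hr : r < π) (z : AddCircle (2 * π)) :
    ∃ L : ℂ, Filter.Tendsto (fun N => partialFourierSum (arcInd c r) N z) Filter.atTop (nhds L) := by
  obtain ⟨y, _, h⟩ := exists_partialFourierSum_arcInd c r hr0 hr z
  obtain ⟨L, hL⟩ := exists_tendsto_arcSum r y
  refine ⟨(L : ℂ), ?_⟩
  simp only [h]
  exact (Complex.continuous_ofReal.tendsto L).comp hL

end Vale.Agent.H25
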