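import Mathlib
import Vale.Agent.H25.ArcFourier

/-!
Identification of the pointwise limit of the partial Fourier sums of a square-integrable
function: if the partial sums converge at every point, the limit is the function almost
everywhere.
-/

set_option linter.unusedSectionVars false

noncomputable section

namespace Vale.Agent.H25

open Finset Real MeasureTheory Filter Topology
open scoped ENNReal

variable [hT : Fact ((0 : ℝ) < 2 * π)]

theorem tendsto_Icc_neg_atTop :
    Tendsto (fun N : ℕ => Icc (-(N : ℤ)) N) atTop atTop := by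
  apply tendsto_atTop_finset_of_monotone
  · intro m n hmn
    apply Icc_subset_Icc
    · exact neg_le_neg (by exact_mod_cast hmn)
    · exact_mod_cast hmn
  · intro k
    refine ⟨k.natAbs, ?_⟩
    rw [mem_Icc]
    constructor <;> omega

/-- The partial Fourier sum as a continuous function. -/
def partialFourierSumC (f : AddCircle (2 * π) → ℂ) (N : ℕ) : C(AddCircle (2 * π), ℂ) :=
  ∑ k ∈ Icc (-(N : ℤ)) N, fourierCoeff f k • fourier k

theorem partialFourierSumC_apply (f : AddCircle (2 * π) → ℂ) (N : ℕ) (z : AddCircle (2 * π)) :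
    partialFourierSumC f N z = partialFourierSum f N z := by
  unfold partialFourierSumC partialFourierSum
  rw [ContinuousMap.sum_apply]
  rfl

/-- If the partial Fourier sums of a square-integrable function converge pointwise almost
everywhere to some function, then they converge almost everywhere to the function itself. -/
theorem ae_tendsto_partialFourierSum_of_memLp_two (f : AddCircle (2 * π) → ℂ)
    (hf : MemLp f 2 AddCircle.haarAddCircle)
    (hconv : ∀ᵐ z ∂AddCircle.haarAddCircle, ∃ L : ℂ,
      Tendsto (fun N => partialFourierSum f N z) atTop (𝓝 L)) :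
    ∀ᵐ z ∂AddCircle.haarAddCircle,
      Tendsto (fun N => partialFourierSum f N z) atTop (𝓝 (f z)) := by
  set F : Lp ℂ 2 (AddCircle.haarAddCircle (T := 2 * π)) := hf.toLp f with hF
  have hFf : (F : AddCircle (2 * π) → ℂ) =ᵐ[AddCircle.haarAddCircle] f := hf.coeFn_toLp
  have hcoef : ∀ k, fourierCoeff (F : AddCircle (2 * π) → ℂ) k = fourierCoeff f k := by
    intro k
    unfold fourierCoeff
    apply integral_congr_ae
    filter_upwards [hFf] with t ht
    rw [ht]
  have hsum := hasSum_fourier_series_L2 F
  have hL2 : Tendsto (fun N : ℕ => ∑ i ∈ Icc (-(N : ℤ)) N,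
      fourierCoeff (F : AddCircle (2 * π) → ℂ) i • fourierLp 2 i) atTop (𝓝 F) :=
    hsum.comp tendsto_Icc_neg_atTop
  have hrep : ∀ N : ℕ, (∑ i ∈ Icc (-(N : ℤ)) N,
      fourierCoeff (F : AddCircle (2 * π) → ℂ) i • fourierLp 2 i : Lp ℂ 2 AddCircle.haarAddCircle) =
      ContinuousMap.toLp (E := ℂ) 2 AddCircle.haarAddCircle ℂ (partialFourierSumC f N) := by
    intro N
    unfold partialFourierSumC
    rw [map_sum]
    refine sum_congr rfl fun i _ => ?_
    rw [map_smul, hcoef]
  have hmeas := tendstoInMeasure_of_tendsto_Lp hL2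
  obtain ⟨ns, hns, hae⟩ := hmeas.exists_seq_tendsto_ae
  have hrep' : ∀ᵐ z ∂AddCircle.haarAddCircle, ∀ N : ℕ,
      ((∑ i ∈ Icc (-(N : ℤ)) N, fourierCoeff (F : AddCircle (2 * π) → ℂ) i • fourierLp 2 i :
        Lp ℂ 2 AddCircle.haarAddCircle) : AddCircle (2 * π) → ℂ) z = partialFourierSum f N z := by
    rw [ae_all_iff]
    intro N
    rw [hrep N]
    filter_upwards [ContinuousMap.coeFn_toLp (p := 2) (𝕜 := ℂ) AddCircle.haarAddCircle
      (partialFourierSumC f N)] with z hz
    rw [hz, partialFourierSumC_apply]
  filter_upwards [hae, hrep', hFf, hconv] with z h1 h2 h3 h4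
  obtain ⟨L, hL⟩ := h4
  have h5 : Tendsto (fun i => partialFourierSum f (ns i) z) atTop (𝓝 (f z)) := by
    have := h1
    simp only [h2] at this
    rwa [h3] at this
  have h6 : Tendsto (fun i => partialFourierSum f (ns i) z) atTop (𝓝 L) :=
    hL.comp hns.tendsto_atTop
  have : L = f z := tendsto_nhds_unique h6 h5
  rw [← this]
  exact hL

end Vale.Agent.H25
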