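import Mathlib
import Vale.Agent.H25.ArcFourier

/-!
The integral over the circle of the majorant `r / (r + ‖z - c‖)`.
-/

set_option linter.unusedSectionVars false

noncomputable section

namespace Vale.Agent.H25

open Finset Real MeasureTheory Filter Topology
open scoped ENNReal

variable [hT : Fact ((0 : ℝ) < 2 * π)]

/-- Integration over the circle with respect to normalised Haar measure, as an interval
integral. -/
theorem integral_haar_eq_intervalIntegral (g : AddCircle (2 * π) → ℝ) (t : ℝ) :
    ∫ z, g z ∂AddCircle.haarAddCircle = (1 / (2 * π)) * ∫ x in t..t + 2 * π, g x := by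
  rw [AddCircle.intervalIntegral_preimage (2 * π) t g, AddCircle.volume_eq_smul_haarAddCircle,
    integral_smul_measure, ENNReal.toReal_ofReal hT.out.le, smul_eq_mul, ← mul_assoc,
    one_div_mul_cancel hT.out.ne', one_mul]

theorem integral_majorant_real {r : ℝ} (hr : 0 < r) :
    ∫ x in (-π)..(-π + 2 * π), r / (r + ‖(x : AddCircle (2 * π))‖) =
      2 * r * Real.log (1 + π / r) := by
  have hπ := pi_pos
  have e0 : -π + 2 * π = π := by ring
  rw [e0]
  have h1 : ∫ x in (-π)..π, r / (r + ‖(x : AddCircle (2 * π))‖) =
      ∫ x in (-π)..π, r / (r + |x|) := by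
    refine intervalIntegral.integral_congr fun x hx => ?_
    rw [Set.uIcc_of_le (by linarith)] at hx
    have : ‖(x : AddCircle (2 * π))‖ = |x| := by
      rw [AddCircle.norm_coe_eq_abs_iff (2 * π) (by positivity),
        abs_of_pos (by positivity : (0 : ℝ) < 2 * π), abs_le]
      exact ⟨by linarith [hx.1], by linarith [hx.2]⟩
    simp only [this]
  rw [h1]
  have hcont : Continuous fun x : ℝ => r / (r + |x|) := by
    apply Continuous.div continuous_const (by fun_prop)
    intro x
    have := abs_nonneg x
    linarith
  rw [← intervalIntegral.integral_add_adjacent_intervals (b := 0)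
    (hcont.intervalIntegrable _ _) (hcont.intervalIntegrable _ _)]
  have hlog : ∫ u in r..(r + π), r / u = r * Real.log (1 + π / r) := by
    have : ∀ u : ℝ, r / u = r * (1 / u) := fun u => by ring
    simp only [this]
    rw [intervalIntegral.integral_const_mul, integral_one_div_of_pos hr (by linarith)]
    congr 2
    field_simp
  have h2 : ∫ x in (0 : ℝ)..π, r / (r + |x|) = r * Real.log (1 + π / r) := by
    have : ∫ x in (0 : ℝ)..π, r / (r + |x|) = ∫ x in (0 : ℝ)..π, r / (r + x) := by
      refine intervalIntegral.integral_congr fun x hx => ?_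
      rw [Set.uIcc_of_le hπ.le] at hx
      simp only [abs_of_nonneg hx.1]
    rw [this, intervalIntegral.integral_comp_add_left (fun u => r / u) r, add_zero]
    exact hlog
  have h3 : ∫ x in (-π)..(0 : ℝ), r / (r + |x|) = r * Real.log (1 + π / r) := by
    have : ∫ x in (-π)..(0 : ℝ), r / (r + |x|) = ∫ x in (-π)..(0 : ℝ), r / (r - x) := by
      refine intervalIntegral.integral_congr fun x hx => ?_
      rw [Set.uIcc_of_le (by linarith)] at hx
      simp only [abs_of_nonpos hx.2, sub_eq_add_neg]
    rw [this, intervalIntegral.integral_comp_sub_left (fun u => r / u) r, sub_zero, sub_neg_eq_add]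
    exact hlog
  rw [h2, h3]
  ring

theorem continuous_majorant (c : AddCircle (2 * π)) {r : ℝ} (hr : 0 < r) :
    Continuous fun z : AddCircle (2 * π) => r / (r + ‖z - c‖) := by
  apply Continuous.div continuous_const (by fun_prop)
  intro z
  have := norm_nonneg (z - c)
  linarith

/-- The integral of the majorant of an arc. -/
theorem integral_majorant (c : AddCircle (2 * π)) {r : ℝ} (hr : 0 < r) :
    ∫ z, r / (r + ‖z - c‖) ∂AddCircle.haarAddCircle = r / π * Real.log (1 + π / r) := by
  have h1 : ∫ z, r / (r + ‖z - c‖) ∂(AddCircle.haarAddCircle (T := 2 * π)) =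
      ∫ z, r / (r + ‖z‖) ∂(AddCircle.haarAddCircle (T := 2 * π)) :=
    integral_sub_right_eq_self (fun z : AddCircle (2 * π) => r / (r + ‖z‖)) c
  rw [h1, integral_haar_eq_intervalIntegral _ (-π), integral_majorant_real hr]
  have hπ := pi_pos
  field_simp

end Vale.Agent.H25
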