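import Mathlib
import Vale.Agent.H25.L2Ident
import Vale.Agent.H25.Majorant

/-!
Countable combinations of arc indicators: Fourier coefficients, partial sums, and the
integrable majorant of the Carleson maximal function.
-/

set_option linter.unusedSectionVars false

noncomputable section

namespace Vale.Agent.H25

open Finset Real MeasureTheory Filter Topology
open scoped ENNReal

variable [hT : Fact ((0 : ℝ) < 2 * π)]

theorem measurableSet_arc (c : AddCircle (2 * π)) (r : ℝ) :
    MeasurableSet (Metric.closedBall c r) := Metric.isClosed_closedBall.measurableSet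

theorem measurable_arcInd (c : AddCircle (2 * π)) (r : ℝ) : Measurable (arcInd c r) :=
  measurable_const.indicator (measurableSet_arc c r)

theorem norm_arcInd (c : AddCircle (2 * π)) (r : ℝ) (z : AddCircle (2 * π)) :
    ‖arcInd c r z‖ = (Metric.closedBall c r).indicator (fun _ => (1 : ℝ)) z := by
  unfold arcInd
  by_cases h : z ∈ Metric.closedBall c r
  · rw [Set.indicator_of_mem h, Set.indicator_of_mem h, norm_one]
  · rw [Set.indicator_of_notMem h, Set.indicator_of_notMem h, norm_zero]

theorem memLp_arcInd (c : AddCircle (2 * π)) (r : ℝ) :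
    MemLp (arcInd c r) 2 AddCircle.haarAddCircle :=
  memLp_indicator_const 2 (measurableSet_arc c r) 1 (Or.inr (measure_ne_top _ _))

theorem integrable_arcInd (c : AddCircle (2 * π)) (r : ℝ) :
    Integrable (arcInd c r) AddCircle.haarAddCircle :=
  (integrable_const (1 : ℂ)).indicator (measurableSet_arc c r)

theorem haar_real_closedBall (c : AddCircle (2 * π)) {r : ℝ} (hr0 : 0 ≤ r) (hr : r ≤ π) :
    (AddCircle.haarAddCircle (T := 2 * π)).real (Metric.closedBall c r) = r / π := by
  have hπ := pi_pos
  have h1 := AddCircle.volume_closedBall (2 * π) (x := c) r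
  rw [AddCircle.volume_eq_smul_haarAddCircle, Measure.smul_apply, smul_eq_mul,
    min_eq_right (by linarith)] at h1
  have h2 : (AddCircle.haarAddCircle (T := 2 * π)) (Metric.closedBall c r) =
      ENNReal.ofReal (2 * r) / ENNReal.ofReal (2 * π) := by
    rw [ENNReal.eq_div_iff (by simp; positivity) ENNReal.ofReal_ne_top]
    exact h1
  unfold Measure.real
  rw [h2, ENNReal.toReal_div, ENNReal.toReal_ofReal (by linarith), ENNReal.toReal_ofReal (by linarith)]
  field_simp

theorem integral_norm_arcInd (c : AddCircle (2 * π)) {r : ℝ} (hr0 : 0 ≤ r) (hr : r ≤ π) :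
    ∫ z, ‖arcInd c r z‖ ∂AddCircle.haarAddCircle = r / π := by
  simp only [norm_arcInd]
  rw [integral_indicator_const _ (measurableSet_arc c r), haar_real_closedBall c hr0 hr]
  simp

/-- The Fourier coefficients of an arc indicator are bounded by the normalised length. -/
theorem norm_fourierCoeff_arcInd_le (c : AddCircle (2 * π)) {r : ℝ} (hr0 : 0 ≤ r) (hr : r ≤ π)
    (k : ℤ) : ‖fourierCoeff (arcInd c r) k‖ ≤ r / π := by
  unfold fourierCoeff
  calc ‖∫ t, fourier (-k) t • arcInd c r t ∂AddCircle.haarAddCircle‖
      ≤ ∫ t, ‖fourier (-k) t • arcInd c r t‖ ∂AddCircle.haarAddCircle :=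
        norm_integral_le_integral_norm _
    _ = ∫ t, ‖arcInd c r t‖ ∂AddCircle.haarAddCircle := by
        congr 1
        funext t
        rw [norm_smul, fourier_apply, Circle.norm_coe, one_mul]
    _ = r / π := integral_norm_arcInd c hr0 hr

section Series

variable {ι : Type*} [Countable ι] (c : ι → AddCircle (2 * π)) (r : ι → ℝ) (a : ι → ℂ)

/-- The countable combination `∑ a j 1_{I_j}` of arc indicators. -/
def stepFun (x : AddCircle (2 * π)) : ℂ := ∑' j, a j * arcInd (c j) (r j) x

theorem norm_fourier_apply (k : ℤ) (t : AddCircle (2 * π)) : ‖(fourier k t : ℂ)‖ = 1 := by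
  rw [fourier_apply, Circle.norm_coe]

theorem hasSum_fourierCoeff_stepFun (hr : ∀ j, 0 < r j ∧ r j < π)
    (hs : Summable fun j => ‖a j‖ * (r j / π)) (k : ℤ) :
    HasSum (fun j => a j * fourierCoeff (arcInd (c j) (r j)) k)
      (fourierCoeff (stepFun c r a) k) := by
  have hF_int : ∀ j, Integrable (fun t => (fourier (-k) t : ℂ) * (a j * arcInd (c j) (r j) t))
      AddCircle.haarAddCircle := by
    intro j
    exact Integrable.bdd_mul (c := 1) ((integrable_arcInd (c j) (r j)).const_mul (a j))
      (fourier (-k)).continuous.aestronglyMeasurable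
      (ae_of_all _ fun t => (norm_fourier_apply (-k) t).le)
  have hF_sum : Summable fun j => ∫ t, ‖(fourier (-k) t : ℂ) * (a j * arcInd (c j) (r j) t)‖
      ∂AddCircle.haarAddCircle := by
    have : ∀ j, ∫ t, ‖(fourier (-k) t : ℂ) * (a j * arcInd (c j) (r j) t)‖
        ∂AddCircle.haarAddCircle = ‖a j‖ * (r j / π) := by
      intro j
      have h1 : ∀ t, ‖(fourier (-k) t : ℂ) * (a j * arcInd (c j) (r j) t)‖ =
          ‖a j‖ * ‖arcInd (c j) (r j) t‖ := by
        intro t
        rw [norm_mul, norm_mul, norm_fourier_apply, one_mul]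
      simp only [h1]
      rw [integral_const_mul, integral_norm_arcInd (c j) (hr j).1.le (hr j).2.le]
    simpa only [this] using hs
  have key := hasSum_integral_of_summable_integral_norm hF_int hF_sum
  have e1 : (fun j => ∫ t, (fourier (-k) t : ℂ) * (a j * arcInd (c j) (r j) t)
      ∂AddCircle.haarAddCircle) = fun j => a j * fourierCoeff (arcInd (c j) (r j)) k := by
    funext j
    unfold fourierCoeff
    rw [← integral_const_mul]
    congr 1
    funext t
    rw [smul_eq_mul]
    ring
  have e2 : ∫ t, ∑' j, (fourier (-k) t : ℂ) * (a j * arcInd (c j) (r j) t)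
      ∂AddCircle.haarAddCircle = fourierCoeff (stepFun c r a) k := by
    unfold fourierCoeff stepFun
    congr 1
    funext t
    rw [smul_eq_mul, tsum_mul_left]
  rw [e1, e2] at key
  exact key

theorem summable_coeff_stepFun (hr : ∀ j, 0 < r j ∧ r j < π)
    (hs : Summable fun j => ‖a j‖ * (r j / π)) (k : ℤ) (x : AddCircle (2 * π)) :
    Summable fun j => a j * (fourierCoeff (arcInd (c j) (r j)) k * fourier k x) := by
  apply Summable.of_norm_bounded hs
  intro j
  rw [norm_mul, norm_mul, norm_fourier_apply, mul_one]
  exact mul_le_mul_of_nonneg_left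
    (norm_fourierCoeff_arcInd_le (c j) (hr j).1.le (hr j).2.le k) (norm_nonneg _)

/-- Partial Fourier sums of a countable combination of arc indicators, term by term. -/
theorem partialFourierSum_stepFun (hr : ∀ j, 0 < r j ∧ r j < π)
    (hs : Summable fun j => ‖a j‖ * (r j / π)) (N : ℕ) (x : AddCircle (2 * π)) :
    partialFourierSum (stepFun c r a) N x =
      ∑' j, a j * partialFourierSum (arcInd (c j) (r j)) N x := by
  unfold partialFourierSum
  have h1 : ∀ k ∈ Icc (-(N : ℤ)) N, fourierCoeff (stepFun c r a) k * fourier k x =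
      ∑' j, a j * (fourierCoeff (arcInd (c j) (r j)) k * fourier k x) := by
    intro k _
    rw [← (hasSum_fourierCoeff_stepFun c r a hr hs k).tsum_eq, ← tsum_mul_right]
    congr 1
    funext j
    ring
  rw [sum_congr rfl h1, ← Summable.tsum_finsetSum (fun k _ => summable_coeff_stepFun c r a hr hs k x)]
  congr 1
  funext j
  rw [mul_sum]

end Series

end Vale.Agent.H25
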