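import Mathlib
import Vale.Agent.H25.StepSeries

/-!
Main theorem on countable combinations of arc indicators: the Carleson maximal function is
integrable and the Fourier series converges almost everywhere, provided
`∑ ‖a j‖ μ_j log (1 + 1 / μ_j) < ∞`, where `μ_j` is the normalised length of the `j`-th arc.
-/

set_option linter.unusedSectionVars false

noncomputable section

namespace Vale.Agent.H25

open Finset Real MeasureTheory Filter Topology
open scoped ENNReal

variable [hT : Fact ((0 : ℝ) < 2 * π)]

/-- The weight `μ log (1 + 1 / μ)` of an arc of radius `r`, where `μ = r / π` is its normalised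
length. -/
def arcWeight (r : ℝ) : ℝ := r / π * Real.log (1 + π / r)

theorem le_arcWeight {r : ℝ} (hr0 : 0 < r) (hr : r < π) : r / π * Real.log 2 ≤ arcWeight r := by
  unfold arcWeight
  have hπ := pi_pos
  have h1 : (2 : ℝ) ≤ 1 + π / r := by
    have : 1 ≤ π / r := by
      rw [le_div_iff₀ hr0]
      linarith
    linarith
  have h2 : Real.log 2 ≤ Real.log (1 + π / r) := Real.log_le_log (by norm_num) h1
  exact mul_le_mul_of_nonneg_left h2 (by positivity)

theorem arcWeight_nonneg {r : ℝ} (hr0 : 0 < r) (hr : r < π) : 0 ≤ arcWeight r := by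
  have h1 := le_arcWeight hr0 hr
  have h2 : 0 ≤ r / π * Real.log 2 := by
    have := Real.log_pos (by norm_num : (1 : ℝ) < 2)
    have hπ := pi_pos
    positivity
  linarith

section Series

variable {ι : Type*} [Countable ι] (c : ι → AddCircle (2 * π)) (r : ι → ℝ) (a : ι → ℂ)

/-- The pointwise majorant of all partial Fourier sums. -/
def majorant (x : AddCircle (2 * π)) : ℝ≥0∞ :=
  ∑' j, ENNReal.ofReal (‖a j‖ * (12 * r j / (r j + ‖x - c j‖)))

theorem majorant_term_nonneg (hr : ∀ j, 0 < r j ∧ r j < π) (j : ι) (x : AddCircle (2 * π)) :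
    0 ≤ ‖a j‖ * (12 * r j / (r j + ‖x - c j‖)) := by
  have h1 := (hr j).1
  have h2 := norm_nonneg (x - c j)
  positivity

theorem continuous_majorant_term (hr : ∀ j, 0 < r j ∧ r j < π) (j : ι) :
    Continuous fun x : AddCircle (2 * π) => ‖a j‖ * (12 * r j / (r j + ‖x - c j‖)) := by
  have h := continuous_majorant (c j) (hr j).1
  have e : (fun x : AddCircle (2 * π) => ‖a j‖ * (12 * r j / (r j + ‖x - c j‖))) =
      fun x => (‖a j‖ * 12) * (r j / (r j + ‖x - c j‖)) := by
    funext x
    ring
  rw [e]
  exact continuous_const.mul h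

theorem measurable_majorant_term (hr : ∀ j, 0 < r j ∧ r j < π) (j : ι) :
    Measurable fun x : AddCircle (2 * π) =>
      ENNReal.ofReal (‖a j‖ * (12 * r j / (r j + ‖x - c j‖))) :=
  ENNReal.measurable_ofReal.comp (continuous_majorant_term c r a hr j).measurable

theorem measurable_majorant (hr : ∀ j, 0 < r j ∧ r j < π) : Measurable (majorant c r a) := by
  unfold majorant
  exact Measurable.tsum fun j => measurable_majorant_term c r a hr j

theorem lintegral_majorant (hr : ∀ j, 0 < r j ∧ r j < π) :
    ∫⁻ x, majorant c r a x ∂AddCircle.haarAddCircle =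
      ∑' j, ENNReal.ofReal (12 * (‖a j‖ * arcWeight (r j))) := by
  unfold majorant
  rw [lintegral_tsum fun j => (measurable_majorant_term c r a hr j).aemeasurable]
  congr 1
  funext j
  have hint : Integrable (fun x : AddCircle (2 * π) => ‖a j‖ * (12 * r j / (r j + ‖x - c j‖)))
      AddCircle.haarAddCircle :=
    (continuous_majorant_term c r a hr j).integrable_of_hasCompactSupport
      (HasCompactSupport.of_compactSpace _)
  rw [← ofReal_integral_eq_lintegral_ofReal hint
    (ae_of_all _ fun x => majorant_term_nonneg c r a hr j x)]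
  congr 1
  have e : ∀ x : AddCircle (2 * π), ‖a j‖ * (12 * r j / (r j + ‖x - c j‖)) =
      (‖a j‖ * 12) * (r j / (r j + ‖x - c j‖)) := fun x => by ring
  simp only [e]
  rw [integral_const_mul, integral_majorant (c j) (hr j).1]
  unfold arcWeight
  ring

/-- All partial Fourier sums of the step function are dominated by the majorant. -/
theorem enorm_partialFourierSum_stepFun_le (hr : ∀ j, 0 < r j ∧ r j < π)
    (hs : Summable fun j => ‖a j‖ * (r j / π)) (N : ℕ) (x : AddCircle (2 * π)) :
    ‖partialFourierSum (stepFun c r a) N x‖ₑ ≤ majorant c r a x := by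
  rw [partialFourierSum_stepFun c r a hr hs]
  refine enorm_tsum_le_tsum_enorm.trans (ENNReal.tsum_le_tsum fun j => ?_)
  rw [← ofReal_norm]
  apply ENNReal.ofReal_le_ofReal
  rw [norm_mul]
  exact mul_le_mul_of_nonneg_left
    (norm_partialFourierSum_arcInd_le (c j) (r j) (hr j).1 (hr j).2 N x) (norm_nonneg _)

/-- Main theorem for countable combinations of arc indicators. -/
theorem stepFun_main (hr : ∀ j, 0 < r j ∧ r j < π)
    (hw : Summable fun j => ‖a j‖ * arcWeight (r j)) :
    (∫⁻ x, ⨆ N : ℕ, ‖partialFourierSum (stepFun c r a) N x‖ₑ ∂AddCircle.haarAddCircle ≤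
        ENNReal.ofReal (12 * ∑' j, ‖a j‖ * arcWeight (r j))) ∧
    ∀ᵐ x ∂AddCircle.haarAddCircle,
      Tendsto (fun N => partialFourierSum (stepFun c r a) N x) atTop (𝓝 (stepFun c r a x)) := by
  have hlog2 : 0 < Real.log 2 := Real.log_pos (by norm_num)
  have hs : Summable fun j => ‖a j‖ * (r j / π) := by
    refine Summable.of_nonneg_of_le (fun j => ?_) (fun j => ?_) (hw.mul_left (1 / Real.log 2))
    · have h1 := (hr j).1
      have hπ := pi_pos
      positivity
    · have h1 := le_arcWeight (hr j).1 (hr j).2
      rw [one_div, inv_mul_eq_div, le_div_iff₀ hlog2, mul_assoc]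
      exact mul_le_mul_of_nonneg_left h1 (norm_nonneg _)
  have hnn : ∀ j, 0 ≤ 12 * (‖a j‖ * arcWeight (r j)) := fun j => by
    have := arcWeight_nonneg (hr j).1 (hr j).2
    positivity
  have htot : ∫⁻ x, majorant c r a x ∂AddCircle.haarAddCircle =
      ENNReal.ofReal (12 * ∑' j, ‖a j‖ * arcWeight (r j)) := by
    rw [lintegral_majorant c r a hr, ← ENNReal.ofReal_tsum_of_nonneg hnn (hw.mul_left 12),
      tsum_mul_left]
  constructor
  · rw [← htot]
    exact lintegral_mono fun x => iSup_le fun N => enorm_partialFourierSum_stepFun_le c r a hr hs N x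
  · have hfin : ∀ᵐ x ∂AddCircle.haarAddCircle, majorant c r a x < ∞ :=
      ae_lt_top (measurable_majorant c r a hr) (by rw [htot]; exact ENNReal.ofReal_ne_top)
    have hconv : ∀ᵐ x ∂AddCircle.haarAddCircle, ∀ j,
        Tendsto (fun N => partialFourierSum (arcInd (c j) (r j)) N x) atTop
          (𝓝 (arcInd (c j) (r j) x)) := by
      rw [ae_all_iff]
      intro j
      exact ae_tendsto_partialFourierSum_of_memLp_two _ (memLp_arcInd (c j) (r j))
        (ae_of_all _ fun z =>
          exists_tendsto_partialFourierSum_arcInd (c j) (r j) (hr j).1.le (hr j).2 z)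
    filter_upwards [hfin, hconv] with x hx1 hx2
    have hsum : Summable fun j => ‖a j‖ * (12 * r j / (r j + ‖x - c j‖)) := by
      have h1 := ENNReal.summable_toReal hx1.ne
      have h2 : (fun j => (ENNReal.ofReal (‖a j‖ * (12 * r j / (r j + ‖x - c j‖)))).toReal) =
          fun j => ‖a j‖ * (12 * r j / (r j + ‖x - c j‖)) := by
        funext j
        exact ENNReal.toReal_ofReal (majorant_term_nonneg c r a hr j x)
      rwa [h2] at h1
    have key := tendsto_tsum_of_dominated_convergence (𝓕 := atTop) hsum
      (f := fun N j => a j * partialFourierSum (arcInd (c j) (r j)) N x)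
      (g := fun j => a j * arcInd (c j) (r j) x)
      (fun j => (hx2 j).const_mul (a j))
      (Eventually.of_forall fun N j => by
        rw [norm_mul]
        exact mul_le_mul_of_nonneg_left
          (norm_partialFourierSum_arcInd_le (c j) (r j) (hr j).1 (hr j).2 N x) (norm_nonneg _))
    have e : (fun N => partialFourierSum (stepFun c r a) N x) =
        fun N => ∑' j, a j * partialFourierSum (arcInd (c j) (r j)) N x := by
      funext N
      exact partialFourierSum_stepFun c r a hr hs N x
    rw [e]
    exact key

end Series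

end Vale.Agent.H25
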