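import Mathlib
import Vale.Agent.H25.StepMain

/-!
The `L log L` corollary: step functions over pairwise disjoint arcs whose steps are tall and
narrow (`‖a j‖ ≥ μ_j ^ (-ε)`) and which belong to `L log L` have an integrable Carleson maximal
function and an almost everywhere convergent Fourier series.
-/

set_option linter.unusedSectionVars false

noncomputable section

namespace Vale.Agent.H25

open Finset Real MeasureTheory Filter Topology
open scoped ENNReal

variable [hT : Fact ((0 : ℝ) < 2 * π)]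

/-- Comparison of the arc weight with the `L log L` weight for a tall narrow step. -/
theorem arcWeight_le_of_tall {r ε A : ℝ} (hε : 0 < ε) (hr0 : 0 < r) (hr : r < π)
    (htall : (r / π) ^ (-ε) ≤ A) :
    A * arcWeight r ≤ (1 + 1 / ε) * (A * Real.log (2 + A) * (r / π)) := by
  have hπ := pi_pos
  have hμ : 0 < r / π := by positivity
  have hμ1 : r / π < 1 := by rw [div_lt_one hπ]; exact hr
  have hpow : 0 < (r / π) ^ (-ε) := Real.rpow_pos_of_pos hμ _
  have hA : 0 < A := lt_of_lt_of_le hpow htall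
  have hinv : π / r = (r / π)⁻¹ := by rw [inv_div]
  have h1 : Real.log (1 + π / r) ≤ Real.log 2 + Real.log (π / r) := by
    rw [← Real.log_mul (by norm_num) (by positivity)]
    apply Real.log_le_log (by positivity)
    have : 1 ≤ π / r := by rw [le_div_iff₀ hr0]; linarith
    linarith
  have h2 : Real.log (π / r) = (1 / ε) * Real.log ((r / π) ^ (-ε)) := by
    rw [Real.log_rpow hμ, hinv, Real.log_inv]
    field_simp
  have h3 : Real.log ((r / π) ^ (-ε)) ≤ Real.log A := Real.log_le_log hpow htall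
  have h4 : Real.log A ≤ Real.log (2 + A) := Real.log_le_log hA (by linarith)
  have h5 : Real.log 2 ≤ Real.log (2 + A) := Real.log_le_log (by norm_num) (by linarith)
  have h6 : 0 ≤ Real.log (2 + A) := Real.log_nonneg (by linarith)
  have h7 : Real.log (1 + π / r) ≤ (1 + 1 / ε) * Real.log (2 + A) := by
    have hε' : 0 ≤ 1 / ε := by positivity
    calc Real.log (1 + π / r) ≤ Real.log 2 + (1 / ε) * Real.log ((r / π) ^ (-ε)) := by
          rw [← h2]; exact h1
      _ ≤ Real.log (2 + A) + (1 / ε) * Real.log (2 + A) := by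
          have := mul_le_mul_of_nonneg_left (h3.trans h4) hε'
          linarith
      _ = (1 + 1 / ε) * Real.log (2 + A) := by ring
  unfold arcWeight
  calc A * (r / π * Real.log (1 + π / r)) ≤ A * (r / π * ((1 + 1 / ε) * Real.log (2 + A))) := by
        gcongr
    _ = (1 + 1 / ε) * (A * Real.log (2 + A) * (r / π)) := by ring

section Series

variable {ι : Type*} [Countable ι] (c : ι → AddCircle (2 * π)) (r : ι → ℝ) (a : ι → ℂ)

theorem indicator_const_eq_mul_arcInd (j : ι) (x : AddCircle (2 * π)) :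
    (Metric.closedBall (c j) (r j)).indicator (fun _ => a j) x = a j * arcInd (c j) (r j) x := by
  unfold arcInd
  by_cases h : x ∈ Metric.closedBall (c j) (r j)
  · rw [Set.indicator_of_mem h, Set.indicator_of_mem h, mul_one]
  · rw [Set.indicator_of_notMem h, Set.indicator_of_notMem h, mul_zero]

/-- On the `j`-th arc a step function over pairwise disjoint arcs equals `a j`. -/
theorem step_eq_of_mem
    (hdisj : Pairwise fun i j =>
      Disjoint (Metric.closedBall (c i) (r i)) (Metric.closedBall (c j) (r j)))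
    (f : AddCircle (2 * π) → ℂ)
    (hf : ∀ x, f x = ∑' j, (Metric.closedBall (c j) (r j)).indicator (fun _ => a j) x)
    (j : ι) (x : AddCircle (2 * π)) (hx : x ∈ Metric.closedBall (c j) (r j)) : f x = a j := by
  rw [hf x, tsum_eq_single j, Set.indicator_of_mem hx]
  intro i hij
  apply Set.indicator_of_notMem
  intro hxi
  exact Set.disjoint_left.1 (hdisj hij) hxi hx

/-- Finite sums of the `L log L` weights are dominated by the `L log L` integral. -/
theorem sum_LlogL_le
    (hr : ∀ j, 0 < r j ∧ r j < π)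
    (hdisj : Pairwise fun i j =>
      Disjoint (Metric.closedBall (c i) (r i)) (Metric.closedBall (c j) (r j)))
    (f : AddCircle (2 * π) → ℂ)
    (hf : ∀ x, f x = ∑' j, (Metric.closedBall (c j) (r j)).indicator (fun _ => a j) x)
    (hLlogL : Integrable (fun x => ‖f x‖ * Real.log (2 + ‖f x‖)) AddCircle.haarAddCircle)
    (s : Finset ι) :
    ∑ j ∈ s, ‖a j‖ * Real.log (2 + ‖a j‖) * (r j / π) ≤
      ∫ x, ‖f x‖ * Real.log (2 + ‖f x‖) ∂AddCircle.haarAddCircle := by
  classical
  have hφ : ∀ x, 0 ≤ ‖f x‖ * Real.log (2 + ‖f x‖) := fun x =>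
    mul_nonneg (norm_nonneg _) (Real.log_nonneg (by linarith [norm_nonneg (f x)]))
  have hpt : ∀ x, ∑ j ∈ s, (Metric.closedBall (c j) (r j)).indicator
      (fun _ => ‖a j‖ * Real.log (2 + ‖a j‖)) x ≤ ‖f x‖ * Real.log (2 + ‖f x‖) := by
    intro x
    by_cases h : ∃ j ∈ s, x ∈ Metric.closedBall (c j) (r j)
    · obtain ⟨j, hjs, hxj⟩ := h
      rw [sum_eq_single j, Set.indicator_of_mem hxj, step_eq_of_mem c r a hdisj f hf j x hxj]
      · intro i _ hij
        apply Set.indicator_of_notMem
        intro hxi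
        exact Set.disjoint_left.1 (hdisj hij) hxi hxj
      · intro hjs'
        exact absurd hjs hjs'
    · simp only [not_exists, not_and] at h
      rw [sum_eq_zero fun j hj => Set.indicator_of_notMem (h j hj) _]
      exact hφ x
  have hint : ∀ j ∈ s, Integrable ((Metric.closedBall (c j) (r j)).indicator
      (fun _ : AddCircle (2 * π) => ‖a j‖ * Real.log (2 + ‖a j‖))) AddCircle.haarAddCircle :=
    fun j _ => (integrable_const _).indicator (measurableSet_arc (c j) (r j))
  have h1 : ∫ x, ∑ j ∈ s, (Metric.closedBall (c j) (r j)).indicator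
      (fun _ => ‖a j‖ * Real.log (2 + ‖a j‖)) x ∂AddCircle.haarAddCircle =
      ∑ j ∈ s, ‖a j‖ * Real.log (2 + ‖a j‖) * (r j / π) := by
    rw [integral_finsetSum s hint]
    refine sum_congr rfl fun j _ => ?_
    rw [integral_indicator_const _ (measurableSet_arc (c j) (r j)),
      haar_real_closedBall (c j) (hr j).1.le (hr j).2.le, smul_eq_mul, mul_comm]
  rw [← h1]
  exact integral_mono (integrable_finsetSum s hint) hLlogL hpt

/-- The `L log L` theorem for step functions with tall narrow steps over disjoint arcs. -/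
theorem step_LlogL (ε : ℝ) (hε : 0 < ε)
    (hr : ∀ j, 0 < r j ∧ r j < π)
    (hdisj : Pairwise fun i j =>
      Disjoint (Metric.closedBall (c i) (r i)) (Metric.closedBall (c j) (r j)))
    (htall : ∀ j, (r j / π) ^ (-ε) ≤ ‖a j‖)
    (f : AddCircle (2 * π) → ℂ)
    (hf : ∀ x, f x = ∑' j, (Metric.closedBall (c j) (r j)).indicator (fun _ => a j) x)
    (hLlogL : Integrable (fun x => ‖f x‖ * Real.log (2 + ‖f x‖)) AddCircle.haarAddCircle) :
    (∫⁻ x : AddCircle (2 * π),
        ⨆ N : ℕ, ‖∑ k ∈ Finset.Icc (-(N : ℤ)) N, fourierCoeff f k * fourier k x‖ₑ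
        ∂AddCircle.haarAddCircle ≤
      ENNReal.ofReal (12 * (1 + 1 / ε) *
        ∫ x, ‖f x‖ * Real.log (2 + ‖f x‖) ∂AddCircle.haarAddCircle)) ∧
    ∀ᵐ x ∂AddCircle.haarAddCircle,
      Tendsto (fun N : ℕ => ∑ k ∈ Finset.Icc (-(N : ℤ)) N, fourierCoeff f k * fourier k x)
        atTop (𝓝 (f x)) := by
  have hfs : f = stepFun c r a := by
    funext x
    rw [hf x]
    unfold stepFun
    congr 1
    funext j
    exact indicator_const_eq_mul_arcInd c r a j x
  set I := ∫ x, ‖f x‖ * Real.log (2 + ‖f x‖) ∂AddCircle.haarAddCircle with hI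
  have hεpos : 0 < 1 + 1 / ε := by positivity
  have hv0 : (0 : ι → ℝ) ≤ fun j => ‖a j‖ * Real.log (2 + ‖a j‖) * (r j / π) := by
    intro j
    have h1 := (hr j).1
    have hπ := pi_pos
    have h2 : 0 ≤ Real.log (2 + ‖a j‖) := Real.log_nonneg (by linarith [norm_nonneg (a j)])
    simp only [Pi.zero_apply]
    positivity
  have hvle := sum_LlogL_le c r a hr hdisj f hf hLlogL
  have hvs : Summable fun j => ‖a j‖ * Real.log (2 + ‖a j‖) * (r j / π) :=
    summable_of_sum_le hv0 hvle
  have hvt : ∑' j, ‖a j‖ * Real.log (2 + ‖a j‖) * (r j / π) ≤ I :=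
    Real.tsum_le_of_sum_le hv0 hvle
  have hwle : ∀ j, ‖a j‖ * arcWeight (r j) ≤
      (1 + 1 / ε) * (‖a j‖ * Real.log (2 + ‖a j‖) * (r j / π)) :=
    fun j => arcWeight_le_of_tall hε (hr j).1 (hr j).2 (htall j)
  have hw0 : ∀ j, 0 ≤ ‖a j‖ * arcWeight (r j) := fun j =>
    mul_nonneg (norm_nonneg _) (arcWeight_nonneg (hr j).1 (hr j).2)
  have hws : Summable fun j => ‖a j‖ * arcWeight (r j) :=
    Summable.of_nonneg_of_le hw0 hwle (hvs.mul_left _)
  have hwt : ∑' j, ‖a j‖ * arcWeight (r j) ≤ (1 + 1 / ε) * I := by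
    calc ∑' j, ‖a j‖ * arcWeight (r j)
        ≤ ∑' j, (1 + 1 / ε) * (‖a j‖ * Real.log (2 + ‖a j‖) * (r j / π)) :=
          hws.tsum_le_tsum hwle (hvs.mul_left _)
      _ = (1 + 1 / ε) * ∑' j, ‖a j‖ * Real.log (2 + ‖a j‖) * (r j / π) := tsum_mul_left
      _ ≤ (1 + 1 / ε) * I := mul_le_mul_of_nonneg_left hvt hεpos.le
  obtain ⟨h1, h2⟩ := stepFun_main c r a hr hws
  rw [← hfs] at h1 h2
  refine ⟨h1.trans (ENNReal.ofReal_le_ofReal ?_), h2⟩
  calc 12 * ∑' j, ‖a j‖ * arcWeight (r j) ≤ 12 * ((1 + 1 / ε) * I) :=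
        mul_le_mul_of_nonneg_left hwt (by norm_num)
    _ = 12 * (1 + 1 / ε) * I := by ring

end Series

end Vale.Agent.H25
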